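import Vale.Agent.P159.T1.H777.Lw

/-!
`StmtPieces` (ARM.4 of P159 T1): the three pieces of the test function are admissible.
-/

open Filter Topology MeasureTheory

namespace Vale.Agent.P159.T1.H777

open Vale.Agent.P159.H353 Vale.Agent.P159.T1.D Vale.Agent.P159.T1.H664

/-! ### numbers -/

lemma exp_half_lt : Real.exp (1 / 2) < 165 / 100 := by
  have h1 := Real.exp_one_lt_d9
  have h2 : Real.exp (1 / 2) * Real.exp (1 / 2) = Real.exp 1 := by
    rw [← Real.exp_add]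
    norm_num
  by_contra h
  push Not at h
  nlinarith

lemma ang_bounds {q : ℕ} (hq : 1000 ≤ q) :
    0 < ang q ∧ ang q ≤ 1 / (q : ℝ) ∧ 99 / 100 * (1 / (q : ℝ)) ≤ ang q ∧ 1 / (q : ℝ) ≤ 1 / 1000 ∧
      0 < 1 / (q : ℝ) := by
  have hq' : (1000 : ℝ) ≤ q := by exact_mod_cast hq
  have he : 0 < 1 / (q : ℝ) := by positivity
  have he2 : 1 / (q : ℝ) ≤ 1 / 1000 := one_div_le_one_div_of_le (by norm_num) hq'
  set e : ℝ := 1 / (q : ℝ) with hedef
  have hd : ang q = Real.arctan e := rfl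
  have h1 : 0 < ang q := by
    rw [hd]
    exact Real.arctan_pos.2 he
  have h2 : ang q ≤ e := by
    rw [hd]
    have h3 := Real.arctan_lt_pi_div_two e
    by_contra hcon
    push Not at hcon
    have h4 := Real.lt_tan he (hcon.trans h3)
    have h5 := Real.tan_lt_tan_of_nonneg_of_lt_pi_div_two he.le h3 hcon
    rw [Real.tan_arctan] at h5
    linarith
  refine ⟨h1, h2, ?_, he2, he⟩
  have h3 : Real.tan (ang q) = e := by
    rw [hd, Real.tan_arctan]
  have h4 : Real.sin (ang q) ≤ ang q := Real.sin_le h1.le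
  have h5 := Real.one_sub_sq_div_two_le_cos (x := ang q)
  have h6 : 0 < Real.cos (ang q) := by nlinarith
  rw [Real.tan_eq_sin_div_cos, div_eq_iff h6.ne'] at h3
  nlinarith

/-- facts about a point of the support of `phW` -/
lemma supp_phW {v d : ℝ} (hd : 0 < d) {w : ℝ × ℝ} (hw : 0 < w.2) (h : phW v d w ≠ 0) :
    4 * d < rw w ∧ rw w < 1 / 2 ∧ d ^ 2 < w.2 ∧ w.2 < 1 / 2 ∧ |w.1| < 1 / 2 ∧
      rw w ^ 2 = w.1 ^ 2 + w.2 ^ 2 ∧ 0 < rw w := by
  unfold phW at h
  have h1 := gp_ne hd (right_ne_zero_of_mul (left_ne_zero_of_mul h))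
  have h2 := up_ne hd hw.le (right_ne_zero_of_mul h)
  have h3 : rw w ^ 2 = w.1 ^ 2 + w.2 ^ 2 := by
    unfold rw
    exact Real.sq_sqrt (by positivity)
  have h4 := rw_pos hw
  refine ⟨h1.1, h1.2, h2, ?_, ?_, h3, h4⟩
  · nlinarith
  · rw [abs_lt]
    constructor <;> nlinarith

lemma exp_bounds {x : ℝ} (hx : |x| < 1 / 2) : 1 / 2 < Real.exp x ∧ Real.exp x < 165 / 100 := by
  rw [abs_lt] at hx
  constructor
  · have := Real.add_one_le_exp x
    linarith
  · exact (Real.exp_lt_exp.2 hx.2).trans exp_half_lt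

lemma sin_bounds {y : ℝ} (hy : 0 < y) (hy2 : y < 1 / 2) :
    y / 2 < Real.sin y ∧ Real.sin y < y ∧ 0 < Real.cos y ∧ Real.cos y ≤ 1 := by
  have h1 := Real.sin_gt_sub_cube hy
  refine ⟨?_, Real.sin_lt hy, ?_, Real.cos_le_one y⟩
  · have : y ^ 3 ≤ y := by nlinarith [mul_pos hy hy]
    linarith
  · exact Real.cos_pos_of_mem_Ioo ⟨by linarith [Real.pi_gt_three], by linarith [Real.pi_gt_three]⟩

/-- the support of the test function is away from the lip -/
lemma supp_ph {v d : ℝ} (hd : 0 < d) {z : ℝ × ℝ} (hz : z.2 < 0) (h : phW v d (lw z) ≠ 0) :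
    z.2 ≤ -(d ^ 2 / 4) := by
  obtain ⟨_, _, h3, h4, h5, _, _⟩ := supp_phW hd (lw_snd_pos z) h
  rw [(lw_polar hz).2]
  have h6 := exp_bounds h5
  have h7 := sin_bounds (lw_snd_pos z) h4
  nlinarith [mul_pos (show 0 < Real.exp (lw z).1 - 1 / 2 by linarith [h6.1])
    (show 0 < Real.sin (lw z).2 by linarith [lw_snd_pos z])]

/-! ### smoothness -/

lemma contDiffAt_thM {w : ℝ × ℝ} (hw : 0 < w.2) : ContDiffAt ℝ 2 thM w := by
  unfold thM
  refine (Real.smoothTransition.contDiff (n := 2)).contDiffAt.comp w ?_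
  exact ((contDiffAt_snd.div (contDiffAt_rw hw) (rw_pos hw).ne').sub contDiffAt_const).mul
    contDiffAt_const

lemma isOpen_below : IsOpen {z : ℝ × ℝ | z.2 < 0} := isOpen_Iio.preimage continuous_snd

lemma contDiff_phM (v : ℝ) {d : ℝ} (hd : 0 < d) : ContDiff ℝ 2 (phM v d) := by
  rw [contDiff_iff_contDiffAt]
  intro z
  by_cases hz : z.2 < 0
  · have h1 : ContDiffAt ℝ 2 (fun z => thM (lw z) * phW v d (lw z)) z :=
      ((contDiffAt_thM (lw_snd_pos z)).comp z (contDiffAt_lw hz)).mul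
        ((contDiffAt_phW v d (lw_snd_pos z)).comp z (contDiffAt_lw hz))
    refine h1.congr_of_eventuallyEq ?_
    filter_upwards [isOpen_below.mem_nhds hz] with y hy
    have hy' : y.2 < 0 := hy
    simp [phM, hy']
  · have h1 : ContDiffAt ℝ 2 (fun _ : ℝ × ℝ => (0 : ℝ)) z := contDiffAt_const
    refine h1.congr_of_eventuallyEq ?_
    have h2 : IsOpen {y : ℝ × ℝ | -(d ^ 2 / 4) < y.2} := isOpen_Ioi.preimage continuous_snd
    filter_upwards [h2.mem_nhds (show -(d ^ 2 / 4) < z.2 by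
      have : 0 < d ^ 2 := by positivity
      linarith)] with y hy
    have hy' : -(d ^ 2 / 4) < y.2 := hy
    by_cases h3 : y.2 < 0
    · by_cases h4 : phW v d (lw y) = 0
      · simp [phM, h3, h4]
      · exact absurd (supp_ph hd h3 h4) (by linarith)
    · simp [phM, h3]

open Classical in
lemma contDiff_side (v : ℝ) {d : ℝ} (hd : 0 < d) {S : Set ℝ} (hS : IsOpen S)
    (hS0 : IsClosed (insert 0 S)) :
    ContDiff ℝ 2 (fun z : ℝ × ℝ => if z.2 < 0 ∧ (lw z).1 ∈ S then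
      (1 - thM (lw z)) * phW v d (lw z) else 0) := by
  rw [contDiff_iff_contDiffAt]
  intro z
  have h0 : ContDiffAt ℝ 2 (fun _ : ℝ × ℝ => (0 : ℝ)) z := contDiffAt_const
  by_cases hz : z.2 < 0
  · have hlw : ContinuousAt (fun y => (lw y).1) z :=
      continuousAt_fst.comp (contDiffAt_lw hz (n := 0)).continuousAt
    by_cases hx : (lw z).1 ∈ S
    · have h1 : ContDiffAt ℝ 2 (fun z => (1 - thM (lw z)) * phW v d (lw z)) z :=
        (contDiffAt_const.sub ((contDiffAt_thM (lw_snd_pos z)).comp z (contDiffAt_lw hz))).mul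
          ((contDiffAt_phW v d (lw_snd_pos z)).comp z (contDiffAt_lw hz))
      refine h1.congr_of_eventuallyEq ?_
      filter_upwards [isOpen_below.mem_nhds hz, hlw (hS.mem_nhds hx)] with y hy hy2
      exact if_pos ⟨hy, hy2⟩
    · refine h0.congr_of_eventuallyEq ?_
      by_cases hx0 : (lw z).1 = 0
      · have hc : ContinuousAt (fun y => (lw y).2 / rw (lw y)) z :=
          (((contDiffAt_snd (𝕜 := ℝ) (n := 0)).div (contDiffAt_rw (lw_snd_pos z))
            (rw_pos (lw_snd_pos z)).ne').comp z (contDiffAt_lw hz (n := 0))).continuousAt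
        have hv : (lw z).2 / rw (lw z) = 1 := by
          have h1 : rw (lw z) = (lw z).2 := by
            unfold rw
            rw [hx0, show (0 : ℝ) ^ 2 + (lw z).2 ^ 2 = (lw z).2 ^ 2 by ring,
              Real.sqrt_sq (lw_snd_pos z).le]
          rw [h1, div_self (lw_snd_pos z).ne']
        have h2 : ∀ᶠ y in 𝓝 z, 42 / 100 < (lw y).2 / rw (lw y) :=
          hc (isOpen_Ioi.mem_nhds (show (42 / 100 : ℝ) < (lw z).2 / rw (lw z) by
            rw [hv]; norm_num))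
        filter_upwards [h2] with y hy
        have h3 : thM (lw y) = 1 := by
          unfold thM
          exact Real.smoothTransition.one_of_one_le (by linarith)
        simp [h3]
      · have h1 : (lw z).1 ∈ (insert 0 S)ᶜ := by
          simp only [Set.mem_compl_iff, Set.mem_insert_iff, not_or]
          exact ⟨hx0, hx⟩
        filter_upwards [hlw (hS0.isOpen_compl.mem_nhds h1)] with y hy
        refine if_neg fun hc => hy (Or.inr hc.2)
  · refine h0.congr_of_eventuallyEq ?_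
    have h2 : IsOpen {y : ℝ × ℝ | -(d ^ 2 / 4) < y.2} := isOpen_Ioi.preimage continuous_snd
    filter_upwards [h2.mem_nhds (show -(d ^ 2 / 4) < z.2 by
      have : 0 < d ^ 2 := by positivity
      linarith)] with y hy
    have hy' : -(d ^ 2 / 4) < y.2 := hy
    by_cases h3 : y.2 < 0
    · by_cases h4 : phW v d (lw y) = 0
      · simp [h4]
      · exact absurd (supp_ph hd h3 h4) (by linarith)
    · simp [h3]

lemma contDiff_phR (v : ℝ) {d : ℝ} (hd : 0 < d) : ContDiff ℝ 2 (phR v d) := by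
  have h := contDiff_side v hd (S := Set.Iio 0) isOpen_Iio
    (by rw [Set.Iio_insert]; exact isClosed_Iic)
  have h2 : phR v d = fun z : ℝ × ℝ => if z.2 < 0 ∧ (lw z).1 ∈ Set.Iio (0 : ℝ) then
      (1 - thM (lw z)) * phW v d (lw z) else 0 := by
    funext z
    simp only [phR, Set.mem_Iio]
  rw [h2]
  exact h

lemma contDiff_phL (v : ℝ) {d : ℝ} (hd : 0 < d) : ContDiff ℝ 2 (phL v d) := by
  have h := contDiff_side v hd (S := Set.Ioi 0) isOpen_Ioi
    (by rw [Set.Ioi_insert]; exact isClosed_Ici)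
  have h2 : phL v d = fun z : ℝ × ℝ => if z.2 < 0 ∧ (lw z).1 ∈ Set.Ioi (0 : ℝ) then
      (1 - thM (lw z)) * phW v d (lw z) else 0 := by
    funext z
    simp only [phL, Set.mem_Ioi]
  rw [h2]
  exact h

/-! ### supports -/

lemma thM_ne_zero {w : ℝ × ℝ} (hw : 0 < w.2) (h : thM w ≠ 0) : 34 / 100 * rw w < w.2 := by
  by_contra hc
  push Not at hc
  apply h
  unfold thM
  apply Real.smoothTransition.zero_of_nonpos
  have h1 : w.2 / rw w ≤ 34 / 100 := by
    rw [div_le_iff₀ (rw_pos hw)]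
    exact hc
  linarith

lemma thM_ne_one {w : ℝ × ℝ} (hw : 0 < w.2) (h : 1 - thM w ≠ 0) : w.2 < 42 / 100 * rw w := by
  by_contra hc
  push Not at hc
  apply h
  unfold thM
  rw [Real.smoothTransition.one_of_one_le, sub_self]
  have h1 : 42 / 100 ≤ w.2 / rw w := by
    rw [le_div_iff₀ (rw_pos hw)]
    exact hc
  linarith

lemma le_of_sq {a r : ℝ} (hr : 0 < r) (h : a ^ 2 ≤ r ^ 2) : -r ≤ a ∧ a ≤ r :=
  abs_le.1 (abs_le_of_sq_le_sq h hr.le)

lemma num_M {d e x y r : ℝ} (hd : 99 / 100 * e ≤ d) (he : e ≤ 1 / 1000)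
    (h1 : 4 * d < r) (ht : 34 / 100 * r < y) (h4 : y < 1 / 2) (h7 : 0 < r) (hxr : -r ≤ x)
    (hyr : y ≤ r) (hx : 1 / 2 < Real.exp x) : 13 / 10 * e ≤ Real.exp x * Real.sin y := by
  have hy : 0 < y := by linarith
  have h10 := Real.sin_gt_sub_cube hy
  have h11 := Real.add_one_le_exp x
  have h9 := (sin_bounds hy h4).1
  rcases le_or_gt r (1 / 50) with hr | hr
  · have g1 : (98 / 100 : ℝ) ≤ Real.exp x := by linarith
    have g3 : y * y ≤ 1 / 50 * (1 / 50) := mul_le_mul (by linarith) (by linarith) hy.le (by norm_num)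
    have g4 : y ^ 3 ≤ y * (1 / 50 * (1 / 50)) := by
      rw [show y ^ 3 = y * (y * y) by ring]
      exact mul_le_mul_of_nonneg_left g3 hy.le
    have g2 : 999 / 1000 * y ≤ Real.sin y := by linarith
    calc 13 / 10 * e ≤ 98 / 100 * (999 / 1000 * y) := by linarith
      _ ≤ Real.exp x * Real.sin y := mul_le_mul g1 g2 (by linarith) (by linarith)
  · calc 13 / 10 * e ≤ 1 / 2 * (y / 2) := by linarith
      _ ≤ Real.exp x * Real.sin y := mul_le_mul hx.le h9.le (by linarith) (by linarith)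

lemma num_L {d e x y r : ℝ} (hd : 99 / 100 * e ≤ d) (h1 : 4 * d < r) (h2 : r < 1 / 2)
    (hy : 0 < y) (ht : y < 42 / 100 * r) (h6 : r ^ 2 = x ^ 2 + y ^ 2) (h7 : 0 < r)
    (hx : 0 < x) (he0 : 0 < e) : 2 * e ≤ Real.exp x * Real.cos y - 1 - e := by
  have hxr : 9 / 10 * r ≤ x := by
    by_contra hc
    push Not at hc
    nlinarith
  have g1 := Real.add_one_le_exp x
  have g2 := Real.one_sub_sq_div_two_le_cos (x := y)
  have g3 : y ^ 2 ≤ (42 / 100 * r) ^ 2 := pow_le_pow_left₀ hy.le ht.le 2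
  have g4 : 1 - 1 / 10 * r ≤ Real.cos y := by nlinarith
  have g5 : (1 + 9 / 10 * r) * (1 - 1 / 10 * r) ≤ Real.exp x * Real.cos y :=
    mul_le_mul (by linarith) g4 (by linarith) (Real.exp_pos x).le
  have g6 : r * r ≤ r * (1 / 2) := mul_le_mul_of_nonneg_left h2.le h7.le
  nlinarith

lemma num_R {d x y r : ℝ} (h1 : 4 * d < r) (hy : 0 < y) (ht : y < 42 / 100 * r)
    (h6 : r ^ 2 = x ^ 2 + y ^ 2) (h7 : 0 < r) (hx : x < 0) : x ≤ -(36 / 10 * d) := by
  have hxr : x ≤ -(9 / 10 * r) := by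
    by_contra hc
    push Not at hc
    nlinarith
  linarith

/-- general facts -/
lemma supp_gen {v d : ℝ} (hd : 0 < d) {z : ℝ × ℝ} (hz : z.2 < 0) (h : phW v d (lw z) ≠ 0) :
    z.1 = -(Real.exp (lw z).1 * Real.cos (lw z).2) ∧
      0 < Real.exp (lw z).1 * Real.cos (lw z).2 ∧
      Real.exp (lw z).1 * Real.cos (lw z).2 ≤ Real.exp (lw z).1 ∧
      Real.exp (lw z).1 < 165 / 100 ∧ -(165 / 100) ≤ z.2 ∧ z.2 ≤ -(d ^ 2 / 4) := by
  obtain ⟨h1, h2, h3, h4, h5, h6, h7⟩ := supp_phW hd (lw_snd_pos z) h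
  have h8 := exp_bounds h5
  have h9 := sin_bounds (lw_snd_pos z) h4
  obtain ⟨p1, p2⟩ := lw_polar hz
  have hec : Real.exp (lw z).1 * Real.cos (lw z).2 ≤ Real.exp (lw z).1 :=
    mul_le_of_le_one_right (Real.exp_pos _).le h9.2.2.2
  have hec0 : 0 < Real.exp (lw z).1 * Real.cos (lw z).2 := mul_pos (Real.exp_pos _) h9.2.2.1
  have hes : Real.exp (lw z).1 * Real.sin (lw z).2 ≤ Real.exp (lw z).1 :=
    mul_le_of_le_one_right (Real.exp_pos _).le (Real.sin_le_one _)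
  exact ⟨p1, hec0, hec, h8.2, by rw [p2]; linarith [h8.2], supp_ph hd hz h⟩

lemma supp_phM {v : ℝ} {q : ℕ} (hq : 1000 ≤ q) {z : ℝ × ℝ} (h : phM v (ang q) z ≠ 0) :
    -(7 / 4) ≤ z.1 ∧ z.1 ≤ 0 ∧ z.2 ≤ -(13 / 10 * (1 / (q : ℝ))) ∧ -(165 / 100) ≤ z.2 := by
  obtain ⟨hd, hd1, hd2, he, he0⟩ := ang_bounds hq
  unfold phM at h
  split_ifs at h with hz
  · have ht := thM_ne_zero (lw_snd_pos z) (left_ne_zero_of_mul h)
    obtain ⟨h1, h2, h3, h4, h5, h6, h7⟩ := supp_phW hd (lw_snd_pos z) (right_ne_zero_of_mul h)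
    obtain ⟨g1, g2, g3, g4, g5, -⟩ := supp_gen hd hz (right_ne_zero_of_mul h)
    refine ⟨by linarith, by linarith, ?_, g5⟩
    rw [(lw_polar hz).2, neg_le_neg_iff]
    exact num_M hd2 he h1 ht h4 h7 (le_of_sq h7 (by rw [h6]; nlinarith [sq_nonneg (lw z).2])).1
      (le_of_sq h7 (by rw [h6]; nlinarith [sq_nonneg (lw z).1])).2 (exp_bounds h5).1
  · exact absurd rfl h

lemma supp_phR {v : ℝ} {q : ℕ} (hq : 1000 ≤ q) {z : ℝ × ℝ} (h : phR v (ang q) z ≠ 0) :
    -Real.exp (-(36 / 10 * ang q)) ≤ z.1 ∧ z.1 ≤ 0 ∧ z.2 ≤ -(ang q ^ 2 / 4) ∧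
      -(165 / 100) ≤ z.2 := by
  obtain ⟨hd, hd1, hd2, he, he0⟩ := ang_bounds hq
  unfold phR at h
  split_ifs at h with hz
  · have ht := thM_ne_one (lw_snd_pos z) (left_ne_zero_of_mul h)
    obtain ⟨h1, h2, h3, h4, h5, h6, h7⟩ := supp_phW hd (lw_snd_pos z) (right_ne_zero_of_mul h)
    obtain ⟨g1, g2, g3, g4, g5, g6⟩ := supp_gen hd hz.1 (right_ne_zero_of_mul h)
    have g7 := num_R h1 (lw_snd_pos z) ht h6 h7 hz.2
    have g8 := Real.exp_le_exp.2 g7
    exact ⟨by linarith, by linarith, g6, g5⟩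
  · exact absurd rfl h

lemma supp_phL {v : ℝ} {q : ℕ} (hq : 1000 ≤ q) {z : ℝ × ℝ} (h : phL v (ang q) z ≠ 0) :
    2 * (1 / (q : ℝ)) ≤ -z.1 - 1 - 1 / (q : ℝ) ∧ -(165 / 100) ≤ z.1 ∧ z.2 ≤ -(ang q ^ 2 / 4) ∧
      -(165 / 100) ≤ z.2 := by
  obtain ⟨hd, hd1, hd2, he, he0⟩ := ang_bounds hq
  unfold phL at h
  split_ifs at h with hz
  · have ht := thM_ne_one (lw_snd_pos z) (left_ne_zero_of_mul h)
    obtain ⟨h1, h2, h3, h4, h5, h6, h7⟩ := supp_phW hd (lw_snd_pos z) (right_ne_zero_of_mul h)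
    obtain ⟨g1, g2, g3, g4, g5, g6⟩ := supp_gen hd hz.1 (right_ne_zero_of_mul h)
    have g7 := num_L hd2 h1 h2 (lw_snd_pos z) ht h6 h7 hz.2 he0
    exact ⟨by rw [g1, neg_neg]; exact g7, by linarith, g6, g5⟩
  · exact absurd rfl h

/-! ### the row -/

lemma adm {F : ℝ × ℝ → ℝ} (hF : ContDiff ℝ 2 F) {c1 c2 : ℝ} (h1 : 0 < c1) (h2 : 0 < c2)
    (h : ∀ z, F z ≠ 0 → (c1 ≤ z.1 ∧ c2 ≤ z.2) ∧ z.1 ≤ 3 ∧ z.2 ≤ 3) :
    ContDiff ℝ 2 F ∧ HasCompactSupport F ∧ (∀ z ∈ tsupport F, 0 < z.1 ∧ 0 < z.2) ∧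
      (∀ z ∈ tsupport F, z.1 ≤ 3 ∧ z.2 ≤ 3) := by
  have hs : Function.support F ⊆ Set.Icc (c1, c2) (3, 3) := fun z hz =>
    ⟨Prod.mk_le_mk.2 (h z hz).1, Prod.mk_le_mk.2 (h z hz).2⟩
  have ht : tsupport F ⊆ Set.Icc (c1, c2) (3, 3) := closure_minimal hs isClosed_Icc
  refine ⟨hF, HasCompactSupport.of_support_subset_isCompact isCompact_Icc hs, fun z hz => ?_,
    fun z hz => ?_⟩
  · have h3 := Prod.mk_le_mk.1 (ht hz).1
    exact ⟨h1.trans_le h3.1, h2.trans_le h3.2⟩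
  · exact Prod.mk_le_mk.1 (ht hz).2

/-- **ARM.4**: the pieces are admissible for `StmtV` -/
theorem stmtPieces : StmtPieces := by
  refine ⟨1000, by norm_num, fun q hq v F hF => ?_⟩
  obtain ⟨hd, hd1, hd2, he, he0⟩ := ang_bounds hq
  rcases hF with rfl | rfl | rfl
  · have hexp : Real.exp (-(36 / 10 * ang q)) < 1 := by
      rw [Real.exp_lt_one_iff]
      linarith
    refine adm (c1 := 1 - Real.exp (-(36 / 10 * ang q))) (c2 := ang q ^ 2 / 4) ?_ (by linarith)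
      (by positivity) fun z hz => ?_
    · exact (contDiff_phR v hd).comp ((contDiff_const.add contDiff_fst).prodMk contDiff_snd.neg)
    · obtain ⟨g1, g2, g3, g4⟩ := supp_phR hq hz
      simp only at g1 g2 g3 g4
      exact ⟨⟨by linarith, by linarith⟩, by linarith, by linarith⟩
  · refine adm (c1 := 2 * (1 / (q : ℝ))) (c2 := ang q ^ 2 / 4) ?_ (by linarith)
      (by positivity) fun z hz => ?_
    · exact (contDiff_phL v hd).comp ((contDiff_const.sub contDiff_fst).prodMk contDiff_snd.neg)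
    · obtain ⟨g1, g2, g3, g4⟩ := supp_phL hq hz
      simp only at g1 g2 g3 g4
      exact ⟨⟨by linarith, by linarith⟩, by linarith, by linarith⟩
  · refine adm (c1 := 1 / 4) (c2 := 1 / 10 * (1 / (q : ℝ))) ?_ (by norm_num)
      (by linarith) fun z hz => ?_
    · exact (contDiff_phM v hd).comp ((contDiff_const.add contDiff_fst).prodMk
        (contDiff_const.sub contDiff_snd))
    · obtain ⟨g1, g2, g3, g4⟩ := supp_phM hq hz
      simp only at g1 g2 g3 g4
      have g5 : 6 / (5 * (q : ℝ)) = 12 / 10 * (1 / (q : ℝ)) := by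
        field_simp
        norm_num
      rw [g5] at g3 g4
      exact ⟨⟨by linarith, by linarith⟩, by linarith, by linarith⟩

end Vale.Agent.P159.T1.H777
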