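import Vale.Agent.P159.T1.H664.ArmDefs

/-!
Common lemmas for `StmtPhDeriv` and `StmtPieces` (ARM.4 of P159 T1): the profiles are smooth, the
logarithmic coordinates are smooth below the lip, supports.
-/

open Filter Topology MeasureTheory

namespace Vale.Agent.P159.T1.H777

open Vale.Agent.P159.H353 Vale.Agent.P159.T1.D Vale.Agent.P159.T1.H664

/-! ### profiles -/

lemma contDiff_gp (d : ℝ) {n : ℕ∞} : ContDiff ℝ n (gp d) := by
  unfold gp
  refine ContDiff.mul (Real.smoothTransition.contDiff.comp ?_)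
    (contDiff_const.sub (Real.smoothTransition.contDiff.comp ?_))
  · exact (contDiff_id.sub contDiff_const).div_const _
  · exact (contDiff_const.mul contDiff_id).sub contDiff_const

lemma gp_ne {d x : ℝ} (hd : 0 < d) (h : gp d x ≠ 0) : 4 * d < x ∧ x < 1 / 2 := by
  constructor
  · by_contra hx
    push Not at hx
    apply h
    unfold gp
    rw [Real.smoothTransition.zero_of_nonpos (div_nonpos_of_nonpos_of_nonneg (by linarith)
      (by linarith)), zero_mul]
  · by_contra hx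
    push Not at hx
    apply h
    unfold gp
    rw [Real.smoothTransition.one_of_one_le (x := 4 * x - 1) (by linarith)]
    ring

lemma contDiff_us (d : ℝ) {n : ℕ∞} : ContDiff ℝ n (us d) := by
  unfold us
  refine contDiff_const.mul (ContDiff.mul (Real.smoothTransition.contDiff.comp ?_)
    (contDiff_const.sub (Real.smoothTransition.contDiff.comp ?_)))
  · exact (contDiff_id.sub contDiff_const).div_const _
  · exact (contDiff_id.sub contDiff_const).div_const _

lemma hasStrictDerivAt_up (d y : ℝ) : HasStrictDerivAt (up d) (us d y) y := by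
  have hc : Continuous (us d) := (contDiff_us d (n := 0)).continuous
  exact intervalIntegral.integral_hasStrictDerivAt_right (hc.intervalIntegrable _ _)
    (hc.stronglyMeasurableAtFilter _ _) hc.continuousAt

lemma contDiff_up (d : ℝ) : ContDiff ℝ ((⊤ : ℕ∞) : WithTop ℕ∞) (up d) := by
  rw [contDiff_infty_iff_deriv]
  have h : deriv (up d) = us d := funext fun y => (hasStrictDerivAt_up d y).hasDerivAt.deriv
  exact ⟨fun y => (hasStrictDerivAt_up d y).hasDerivAt.differentiableAt, h ▸ contDiff_us d⟩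

lemma us_eq_zero {d t : ℝ} (hd : 0 < d) (h : t ≤ d ^ 2) : us d t = 0 := by
  unfold us
  rw [Real.smoothTransition.zero_of_nonpos (div_nonpos_of_nonpos_of_nonneg (by linarith)
      (by positivity)), zero_mul, mul_zero]

lemma up_ne {d y : ℝ} (hd : 0 < d) (hy : 0 ≤ y) (h : up d y ≠ 0) : d ^ 2 < y := by
  by_contra hx
  push Not at hx
  apply h
  unfold up
  rw [intervalIntegral.integral_congr (g := fun _ => (0 : ℝ))]
  · simp
  · intro t ht
    rw [Set.uIcc_of_le hy] at ht
    exact us_eq_zero hd (ht.2.trans hx)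

/-! ### the radius -/

lemma rw_pos {w : ℝ × ℝ} (hw : 0 < w.2) : 0 < rw w := by
  unfold rw
  positivity

lemma hasStrictFDerivAt_rw {w : ℝ × ℝ} (hw : 0 < w.2) :
    HasStrictFDerivAt rw ((w.1 / rw w) • ContinuousLinearMap.fst ℝ ℝ ℝ +
      (w.2 / rw w) • ContinuousLinearMap.snd ℝ ℝ ℝ) w := by
  have h1 : HasStrictFDerivAt (fun w : ℝ × ℝ => w.1 ^ 2 + w.2 ^ 2)
      ((2 * w.1) • ContinuousLinearMap.fst ℝ ℝ ℝ + (2 * w.2) • ContinuousLinearMap.snd ℝ ℝ ℝ) w := by
    have h2 := ((hasStrictFDerivAt_fst (𝕜 := ℝ) (E := ℝ) (F := ℝ) (p := w)).pow 2).add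
      ((hasStrictFDerivAt_snd (𝕜 := ℝ) (E := ℝ) (F := ℝ) (p := w)).pow 2)
    refine h2.congr_fderiv ?_
    ext <;> simp
  have h3 := h1.sqrt (by positivity)
  refine h3.congr_fderiv ?_
  have hr : rw w ≠ 0 := (rw_pos hw).ne'
  have hs : Real.sqrt (w.1 ^ 2 + w.2 ^ 2) = rw w := rfl
  ext <;> simp [hs] <;> field_simp

lemma contDiffAt_rw {w : ℝ × ℝ} (hw : 0 < w.2) {n : WithTop ℕ∞} : ContDiffAt ℝ n rw w := by
  unfold rw
  exact ((contDiffAt_fst.pow 2).add (contDiffAt_snd.pow 2)).sqrt (by positivity)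

/-! ### the logarithmic coordinates -/

lemma lw_eq (z : ℝ × ℝ) :
    lw z = ((Complex.log ⟨z.1, z.2⟩).re, (Complex.log ⟨z.1, z.2⟩).im + Real.pi) := by
  unfold lw
  rw [Complex.log_re, Complex.log_im, Complex.norm_def, Complex.normSq_mk]
  simp only [pow_two]

lemma lw_snd_pos (z : ℝ × ℝ) : 0 < (lw z).2 := by
  have := Complex.neg_pi_lt_arg ⟨z.1, z.2⟩
  simp only [lw]
  linarith

lemma lw_snd_lt {z : ℝ × ℝ} (hz : z.2 < 0) : (lw z).2 < Real.pi := by
  have := Complex.arg_neg_iff (z := ⟨z.1, z.2⟩) |>.2 hz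
  simp only [lw]
  linarith

/-- the point in polar coordinates -/
lemma lw_polar {z : ℝ × ℝ} (hz : z.2 < 0) :
    z.1 = -(Real.exp (lw z).1 * Real.cos (lw z).2) ∧
      z.2 = -(Real.exp (lw z).1 * Real.sin (lw z).2) := by
  have h0 : (⟨z.1, z.2⟩ : ℂ) ≠ 0 := by
    intro h
    have := congrArg Complex.im h
    simp only [Complex.zero_im] at this
    exact hz.ne this
  have h1 : Real.exp (lw z).1 = ‖(⟨z.1, z.2⟩ : ℂ)‖ := by
    rw [lw_eq]
    simp only
    rw [Complex.log_re, Real.exp_log (by positivity)]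
  have h2 : (lw z).2 = Complex.arg ⟨z.1, z.2⟩ + Real.pi := rfl
  rw [h1, h2, Real.cos_add_pi, Real.sin_add_pi]
  constructor
  · rw [mul_neg, neg_neg, Complex.norm_mul_cos_arg]
  · rw [mul_neg, neg_neg, Complex.norm_mul_sin_arg]

lemma mem_slit {z : ℝ × ℝ} (hz : z.2 < 0) : (⟨z.1, z.2⟩ : ℂ) ∈ Complex.slitPlane := by
  rw [Complex.mem_slitPlane_iff]
  exact Or.inr hz.ne

/-- the complex number of a point, as a linear map -/
noncomputable def toC : ℝ × ℝ →L[ℝ] ℂ := Complex.equivRealProdCLM.symm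

lemma toC_apply (z : ℝ × ℝ) : toC z = ⟨z.1, z.2⟩ := by
  apply Complex.ext <;> simp [toC]

lemma hasStrictFDerivAt_lw {z : ℝ × ℝ} (hz : z.2 < 0) :
    HasStrictFDerivAt lw
      (((z.1 / (z.1 ^ 2 + z.2 ^ 2)) • ContinuousLinearMap.fst ℝ ℝ ℝ +
          (z.2 / (z.1 ^ 2 + z.2 ^ 2)) • ContinuousLinearMap.snd ℝ ℝ ℝ).prod
        ((-z.2 / (z.1 ^ 2 + z.2 ^ 2)) • ContinuousLinearMap.fst ℝ ℝ ℝ +
          (z.1 / (z.1 ^ 2 + z.2 ^ 2)) • ContinuousLinearMap.snd ℝ ℝ ℝ)) z := by
  have hs : toC z ∈ Complex.slitPlane := by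
    rw [toC_apply]
    exact mem_slit hz
  have h1 : HasStrictFDerivAt (fun z : ℝ × ℝ => Complex.log (toC z))
      (((ContinuousLinearMap.toSpanSingleton ℂ (toC z)⁻¹).restrictScalars ℝ).comp toC) z :=
    ((Complex.hasStrictDerivAt_log hs).hasStrictFDerivAt.restrictScalars ℝ).comp z
      toC.hasStrictFDerivAt
  have h2 := (Complex.reCLM.hasStrictFDerivAt.comp z h1).prodMk
    ((Complex.imCLM.hasStrictFDerivAt.comp z h1).add_const Real.pi)
  have h3 : (fun z : ℝ × ℝ => (Complex.reCLM (Complex.log (toC z)),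
      Complex.imCLM (Complex.log (toC z)) + Real.pi)) = lw := by
    funext z
    rw [lw_eq, toC_apply]
    rfl
  rw [← h3]
  refine h2.congr_fderiv ?_
  have hn : Complex.normSq (toC z) = z.1 ^ 2 + z.2 ^ 2 := by
    rw [toC_apply, Complex.normSq_mk]
    ring
  ext <;> simp [hn, toC_apply] <;> ring

lemma contDiffAt_lw {z : ℝ × ℝ} (hz : z.2 < 0) {n : WithTop ℕ∞} : ContDiffAt ℝ n lw z := by
  have hs : toC z ∈ Complex.slitPlane := by
    rw [toC_apply]
    exact mem_slit hz
  have h1 : ContDiffAt ℝ n (fun z : ℝ × ℝ => Complex.log (toC z)) z :=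
    ((Complex.contDiffAt_log hs).restrict_scalars ℝ).comp z toC.contDiff.contDiffAt
  have h3 : (fun z : ℝ × ℝ => (Complex.reCLM (Complex.log (toC z)),
      Complex.imCLM (Complex.log (toC z)) + Real.pi)) = lw := by
    funext z
    rw [lw_eq, toC_apply]
    rfl
  rw [← h3]
  exact (Complex.reCLM.contDiff.contDiffAt.comp z h1).prodMk
    ((Complex.imCLM.contDiff.contDiffAt.comp z h1).add contDiffAt_const)

/-! ### the test function -/

lemma hasStrictFDerivAt_phW (v d : ℝ) {w : ℝ × ℝ} (hw : 0 < w.2) :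
    HasStrictFDerivAt (phW v d) (phx v d w • ContinuousLinearMap.fst ℝ ℝ ℝ +
      phy v d w • ContinuousLinearMap.snd ℝ ℝ ℝ) w := by
  have h1 : HasStrictDerivAt (gp d) (deriv (gp d) (rw w)) (rw w) :=
    (contDiff_gp d (n := 1)).contDiffAt.hasStrictDerivAt one_ne_zero
  have h2 := h1.comp_hasStrictFDerivAt w (hasStrictFDerivAt_rw hw)
  have h3 := (hasStrictDerivAt_up d w.2).comp_hasStrictFDerivAt w
    (hasStrictFDerivAt_snd (𝕜 := ℝ) (E := ℝ) (F := ℝ) (p := w))
  have h4 := (h2.const_mul v).mul h3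
  refine h4.congr_fderiv ?_
  ext <;> simp [phx, phy] <;> ring

lemma contDiffAt_phW (v d : ℝ) {w : ℝ × ℝ} (hw : 0 < w.2) : ContDiffAt ℝ 2 (phW v d) w := by
  unfold phW
  refine ContDiffAt.mul (contDiffAt_const.mul ?_) ?_
  · exact (contDiff_gp d (n := 2)).contDiffAt.comp w (contDiffAt_rw hw)
  · exact ((contDiff_up d).contDiffAt.of_le (by norm_cast)).comp w contDiffAt_snd

/-- **ARM.4**: derivatives of the test function below the lip -/
theorem stmtPhDeriv : StmtPhDeriv := by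
  intro v d _ _ z hz
  have h1 := (hasStrictFDerivAt_phW v d (lw_snd_pos z)).comp z (hasStrictFDerivAt_lw hz)
  have h2 : (phW v d ∘ lw) =ᶠ[𝓝 z] ph v d := by
    filter_upwards [(isOpen_Iio.preimage continuous_snd).mem_nhds hz] with y hy
    have hy' : y.2 < 0 := hy
    simp [ph, hy']
  have h3 := h1.congr_of_eventuallyEq h2
  refine h3.congr_fderiv ?_
  ext <;> simp <;> ring

end Vale.Agent.P159.T1.H777
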